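import Vale.Agent.P131.Op

namespace Vale.Agent.P131
open scoped unitInterval ENNReal Topology
open Filter MeasureTheory Set Polynomial

def Wt (a : ℕ → I) : Prop :=
  (∀ n, 0 < (a n : ℝ)) ∧ Antitone (fun n => (a n : ℝ)) ∧
    ∀ n, ∃ δ : ℝ, 0 < δ ∧ (a (n + 1) : ℝ) ≤ δ * a n ∧
      ∀ N ≤ (n + 1) ^ 2, ∀ M ≤ (n + 1) ^ 2, Loc N M (a n) (1 / (n + 1)) δ

lemma exists_Wt : ∃ a, Wt a := by
  obtain ⟨a, h0, h1, h2, h3⟩ := exists_weights
  exact ⟨fun n => ⟨a n, (h0 n).le, h1 n⟩, h0, h2, h3⟩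

variable {a : ℕ → I} {P : Submodule ℂ HH}

lemma approx (ha : Wt a) (hP : Hyp a P) (h0 : P ≠ ⊥) (r : ℕ) (hr : 0 < r) :
    ∃ ξ ∈ P, mu.real {x | ‖ξ x - ek 0‖ ≤ 1 / r}ᶜ ≤ 4 / r := by
  obtain ⟨ξ0, hξ0, hb, k, hk⟩ := start hP h0
  have hA : MeasurableSet {x | 1 / ((k : ℝ) + 1) ≤ ‖ξ0 x 0‖} :=
    measurableSet_le measurable_const (meas_coord ξ0 0).norm.measurable
  have hr' : (0 : ℝ) < r := by exact_mod_cast hr
  obtain ⟨m, hm⟩ := bad_small hA hk (ε := 1 / r ^ 3) (by positivity)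
  obtain ⟨N, hN1, hN2, hG⟩ := good_large (meas_Bad hA m) r m (m + k + 2) hr (by omega) hm
  set s := m + k + 2 with hs
  have hsn : s ≤ r * s := Nat.le_mul_of_pos_left s hr
  have hrn : r ≤ r * s := Nat.le_mul_of_pos_right r (by omega)
  obtain ⟨n, hn⟩ : ∃ n, r * s = n + 1 := ⟨r * s - 1, by omega⟩
  rw [hn] at hG hsn hrn
  obtain ⟨δ, hδ, haδ, hloc⟩ := ha.2.2 n
  have hNL : N ≤ (n + 1) ^ 2 := by nlinarith
  have hML : ∀ M : Fin (r * (n + 1)), (M : ℕ) ≤ (n + 1) ^ 2 := fun M => by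
    have := M.2; nlinarith
  choose G hG' using fun M : Fin (r * (n + 1)) => hloc N hNL M (hML M)
  let f : (Σ _ : Fin (r * (n + 1)), ℂ[X]) × ℤ → XX → L2 := fun p x =>
    aeval (W (cT a x) 1) p.1.2 (W (cD a (-(N : ℤ) - 1) p.1.1 x) 0
      (W (fun _ => 1) p.2 (ξ0 (re (Equiv.addRight p.2)
        (re (Equiv.swap (-(N : ℤ) - 1) ((p.1.1 : ℕ) : ℤ)) x)))))
  have hf : ∀ p, Rep P (f p) := fun p =>
    rep_poly hP (rep_op hP (meas_cD a _ _) (comm_swap ha.1 (by omega))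
      (rep_shift hP (h := fun _ => 1) measurable_const p.2 (rep_self hξ0))) _
  obtain ⟨ξ, hξ, h⟩ := glue hP (1 / r) f hf
    ((Finset.univ.sigma G) ×ˢ Finset.Icc (-(m : ℤ)) 0)
  refine ⟨ξ, hξ, le_trans (ENNReal.toReal_mono (measure_ne_top _ _) (measure_mono_ae ?_)) hG⟩
  have hb' : ∀ᵐ x ∂mu, ∀ p : ℤ × ℤ, ‖ξ0 (re (Equiv.addRight p.1)
      (re (Equiv.swap (-(N : ℤ) - 1) p.2) x))‖ ≤ 1 :=
    ae_all_iff.2 fun p => ae_re _ (ae_re (Equiv.addRight p.1) hb)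
  filter_upwards [h, hb'] with x hx hx' hx1
  rintro ⟨M, hM, hM1, hM2, hM3⟩
  refine hx1 (hx ?_)
  simp only [Bad, mem_ofPred_eq, not_forall, not_not] at hM3
  obtain ⟨t, ht1, ht2, ht3⟩ := hM3
  have hlow : ∀ i : ℤ, -(N : ℤ) - 1 ≤ i → i < M → (a n : ℝ) ≤ a (x i) := fun i hi hi' =>
    ha.2.1 (Nat.lt_succ_iff.1 (hM2 i hi hi'))
  have hhigh : (a (x M) : ℝ) ≤ δ * a n := (ha.2.1 hM1).trans haδ
  have hl := hlow (-(N : ℤ) - 1) le_rfl (by omega)
  have hn1 : (a (x M) : ℝ) ≤ a n := ha.2.1 (by omega : n ≤ x M)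
  obtain ⟨g, hg, hg'⟩ := hG' ⟨M, hM⟩ (cT a x)
    (W (cD a (-(N : ℤ) - 1) M x) 0 (W (fun _ => 1) t (ξ0 (re (Equiv.addRight t)
        (re (Equiv.swap (-(N : ℤ) - 1) M) x)))))
    (W (fun _ => 1) t (ξ0 (re (Equiv.addRight t) (re (Equiv.swap (-(N : ℤ) - 1) M) x))))
    (fun i hi hi' => hlow (i - 1) (by omega) (by simp only at hi'; omega))
    (by
      simp only [cT, add_sub_cancel_right]
      exact hhigh.trans (mul_le_of_le_one_right hδ.le (a n).2.2))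
    ((norm_W_le _ _ _).trans (hx' (t, M)))
    (fun i hi hi' => by
      rw [W_apply, cD, if_pos ⟨by omega, hi'⟩, rat_val,
        min_eq_left ((one_le_div (ha.1 _)).2 (hn1.trans hl)), sub_zero]
      simp)
    (fun i hi => by
      rw [W_apply, cD, if_neg (by simp only at hi; omega), rat_val, sub_zero, norm_mul,
        Complex.norm_real, Real.norm_eq_abs,
        abs_of_nonneg (le_min zero_le_one (div_nonneg (a _).2.1 (a _).2.1))]
      refine mul_le_mul_of_nonneg_right ((min_le_right _ _).trans ?_) (norm_nonneg _)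
      rw [div_le_iff₀ (ha.1 _)]
      exact hhigh.trans (mul_le_mul_of_nonneg_left hl hδ.le))
    ⟨t, by omega, ht2, by
      rw [W_apply, sub_self]
      simp only [Icc.coe_one, Complex.ofReal_one, one_mul]
      refine le_trans (one_div_le_one_div_of_le (by positivity) ?_) ht3
      have : k ≤ n := by omega
      have : (k : ℝ) ≤ n := by exact_mod_cast this
      linarith⟩
  refine ⟨(⟨⟨M, hM⟩, g⟩, t), by simp [hg, ht1, ht2], hg'.trans ?_⟩
  refine one_div_le_one_div_of_le hr' ?_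
  exact_mod_cast hrn

noncomputable def E0 : HH := Lp.const 2 mu (ek 0)

lemma E0_ae : ∀ᵐ x ∂mu, E0 x = ek 0 := Lp.coeFn_const 2 mu (ek 0)

lemma E0_mem (ha : Wt a) (hP : Hyp a P) (h0 : P ≠ ⊥) (hc : IsClosed (P : Set HH)) : E0 ∈ P := by
  have key : ∀ r : ℕ, 0 < r → ∃ η ∈ P, ‖η - E0‖ ≤ 1 / r + (4 / r : ℝ) ^ (1 / 2 : ℝ) := by
    intro r hr
    obtain ⟨ξ, hξ, h⟩ := approx ha hP h0 r hr
    have hE := meas_near ξ (1 / r)
    obtain ⟨η, hη, h1⟩ := rep_ind hP hE (rep_self hξ)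
    refine ⟨η, hη, ?_⟩
    let J : HH := indicatorConstLp 2 hE.compl (measure_ne_top mu _) (ek 0)
    have hJ : ‖J‖ ≤ (4 / r : ℝ) ^ (1 / 2 : ℝ) := by
      refine norm_indicatorConstLp_le.trans ?_
      rw [norm_ek, one_mul]
      exact Real.rpow_le_rpow measureReal_nonneg h (by norm_num)
    have h2 : ‖η - E0 + J‖ ≤ 1 / r := by
      refine (Lp.norm_le_of_ae_bound (C := 1 / r) (by positivity) ?_).trans (by simp [measureUnivNNReal])
      filter_upwards [Lp.coeFn_add (η - E0) J, Lp.coeFn_sub η E0, h1, E0_ae,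
        indicatorConstLp_coeFn (p := 2) (hs := hE.compl) (hμs := measure_ne_top mu _) (c := ek 0)]
        with x e1 e2 e3 e4 e5
      rw [e1, Pi.add_apply, e2, Pi.sub_apply, e3, e4, e5]
      by_cases hx : x ∈ {x | ‖ξ x - ek 0‖ ≤ 1 / r}
      · rw [indicator_of_mem hx, indicator_of_notMem (by simpa using hx), add_zero]; exact hx
      · rw [indicator_of_notMem hx, indicator_of_mem hx]; simp
    have h3 : η - E0 = (η - E0 + J) - J := by abel
    rw [h3]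
    exact (norm_sub_le _ _).trans (add_le_add h2 hJ)
  have hlim : Tendsto (fun r : ℕ => 1 / (r : ℝ) + (4 / r : ℝ) ^ (1 / 2 : ℝ)) atTop (𝓝 0) := by
    have h1 := (tendsto_const_div_atTop_nhds_zero_nat (4 : ℝ)).rpow_const (p := 1 / 2)
      (Or.inr (by norm_num))
    rw [Real.zero_rpow (by norm_num)] at h1
    simpa using (tendsto_const_div_atTop_nhds_zero_nat (1 : ℝ)).add h1
  change E0 ∈ (P : Set HH)
  rw [← hc.closure_eq, Metric.mem_closure_iff]
  intro ε hε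
  obtain ⟨r, hr1, hr2⟩ := ((hlim.eventually (Iio_mem_nhds hε)).and (eventually_gt_atTop 0)).exists
  obtain ⟨η, hη, h⟩ := key r hr2
  exact ⟨η, hη, by rw [dist_comm, dist_eq_norm]; exact h.trans_lt hr1⟩

lemma eq_top (ha : Wt a) (hP : Hyp a P) (h0 : P ≠ ⊥) (hc : IsClosed (P : Set HH)) : P = ⊤ := by
  have hE := E0_mem ha hP h0 hc
  have : CompleteSpace P := hc.completeSpace_coe
  rw [← Submodule.orthogonal_eq_bot_iff, Submodule.eq_bot_iff]
  intro ζ hζ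
  have h1 : ∀ k : ℤ, ∀ᵐ x ∂mu, ζ x k = 0 := by
    intro k
    have hint : Integrable (fun x => inner ℂ (ek k) (ζ x)) mu :=
      ((Lp.memLp ζ).integrable (by norm_num)).const_inner _
    have h2 := hint.ae_eq_zero_of_forall_setIntegral_eq_zero fun E hEm hE' => by
      rw [← L2.inner_indicatorConstLp_eq_setIntegral_inner ℂ ζ hEm (ek k) hE'.ne]
      refine (Submodule.mem_orthogonal P ζ).1 hζ _ ?_
      obtain ⟨η, hη, h3⟩ := rep_ind hP hEm
        (rep_shift hP (h := fun _ => 1) measurable_const k ⟨E0, hE, E0_ae⟩)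
      have h4 : W (fun _ => 1) k (ek 0) = ek k := by
        ext n; simp [W_apply, ek_apply, sub_eq_zero]
      have : indicatorConstLp 2 hEm hE'.ne (ek k) = η := by
        refine Lp.ext ?_
        filter_upwards [h3, indicatorConstLp_coeFn (p := 2) (hs := hEm) (hμs := hE'.ne) (c := ek k)]
          with x e1 e2
        rw [e1, e2, h4]
      rw [this]; exact hη
    filter_upwards [h2] with x hx
    simpa [ek, lp.inner_single_left] using hx
  refine Lp.ext ?_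
  filter_upwards [ae_all_iff.2 h1, Lp.coeFn_zero L2 2 mu] with x e1 e2
  rw [e2]; ext n; exact e1 n

lemma nonscalar (ha : Wt a) (z : ℂ) : TT a ≠ z • (1 : HH →L[ℂ] HH) := by
  intro h
  have h1 : TT a E0 = z • E0 := by rw [h]; rfl
  have h2 : ∀ᵐ x ∂mu, False := by
    filter_upwards [TT_ae a E0, Lp.coeFn_smul z E0, E0_ae] with x e1 e2 e3
    rw [h1, e2, Pi.smul_apply, e3] at e1
    have h3 := congrArg (fun v : L2 => v 1) e1
    simp only [lp.coeFn_smul, Pi.smul_apply, W_apply, ek_apply, cT] at h3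
    simp at h3
    exact (ha.1 (x 0)).ne' (Complex.ofReal_eq_zero.1 h3.symm)
  exact h2.exists.elim fun _ h => h

theorem model : ∃ T : HH →L[ℂ] HH, (∀ z : ℂ, T ≠ z • 1) ∧
    ∀ M : Submodule ℂ HH, IsClosed (M : Set HH) →
      (∀ A : HH →L[ℂ] HH, A * T = T * A → ∀ x ∈ M, A x ∈ M) → M = ⊥ ∨ M = ⊤ := by
  obtain ⟨a, ha⟩ := exists_Wt
  refine ⟨TT a, nonscalar ha, fun M hM hP => ?_⟩
  by_cases h0 : M = ⊥
  · exact Or.inl h0
  · exact Or.inr (eq_top ha hP h0 hM)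

end Vale.Agent.P131
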