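import Mathlib

namespace Vale.Agent.P131
open scoped ENNReal Topology symmDiff
open Filter MeasureTheory ProbabilityTheory Set

noncomputable def nu : Measure ℕ := (volume.restrict (Ioc (0 : ℝ) 1)).map fun v => ⌊v⁻¹⌋₊

lemma meas_fl : Measurable fun v : ℝ => ⌊v⁻¹⌋₊ := Nat.measurable_floor.comp measurable_inv

instance : IsProbabilityMeasure nu := by
  have : IsProbabilityMeasure (volume.restrict (Ioc (0 : ℝ) 1)) := ⟨by simp⟩
  exact Measure.isProbabilityMeasure_map meas_fl.aemeasurable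

lemma nu_Ici (n : ℕ) (hn : 0 < n) : nu.real (Ici n) = 1 / n := by
  have hn' : (0 : ℝ) < n := by exact_mod_cast hn
  have hn1 : (1 : ℝ) ≤ n := by exact_mod_cast hn
  rw [measureReal_def, nu, Measure.map_apply meas_fl measurableSet_Ici,
    Measure.restrict_apply (meas_fl measurableSet_Ici)]
  have : (fun v : ℝ => ⌊v⁻¹⌋₊) ⁻¹' Ici n ∩ Ioc 0 1 = Ioc 0 (1 / n : ℝ) := by
    ext v
    simp only [mem_inter_iff, mem_preimage, mem_Ici, mem_Ioc]
    constructor
    · rintro ⟨h1, h2, -⟩
      refine ⟨h2, ?_⟩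
      rw [Nat.le_floor_iff (by positivity)] at h1
      rw [one_div]; exact (le_inv_comm₀ hn' h2).1 h1
    · rintro ⟨h1, h2⟩
      refine ⟨?_, h1, h2.trans (by rw [div_le_one hn']; exact hn1)⟩
      rw [Nat.le_floor_iff (by positivity)]
      rw [one_div] at h2; exact (le_inv_comm₀ hn' h1).2 h2
  rw [this, Real.volume_Ioc, ENNReal.toReal_ofReal (by rw [sub_zero]; positivity), sub_zero]

lemma nu_Iio (n : ℕ) (hn : 0 < n) : nu.real (Iio n) = 1 - 1 / n := by
  rw [← compl_Ici, probReal_compl_eq_one_sub measurableSet_Ici, nu_Ici n hn]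

abbrev XX := ℤ → ℕ

noncomputable def mu : Measure XX := Measure.infinitePi fun _ : ℤ => nu

instance : IsProbabilityMeasure mu := by unfold mu; infer_instance

lemma indep_mu : iIndepFun (fun (i : ℤ) (x : XX) => x i) mu :=
  iIndepFun_infinitePi (P := fun _ : ℤ => nu) (X := fun _ v => v) fun _ => measurable_id

def re (e : ℤ ≃ ℤ) (x : XX) : XX := fun i => x (e i)

lemma mp_re (e : ℤ ≃ ℤ) : MeasurePreserving (re e) mu mu := by
  refine ⟨by unfold re; fun_prop, ?_⟩
  have h := (indep_mu.precomp e.injective).map_fun_eq_infinitePi_map (fun i => by fun_prop)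
  have h2 : ∀ i : ℤ, mu.map (fun x : XX => x (e i)) = nu := fun i =>
    Measure.infinitePi_map_eval (fun _ : ℤ => nu) (e i)
  simp only [h2] at h
  exact h

lemma mu_ge (i : ℤ) (n : ℕ) (hn : 0 < n) : mu.real {x | n ≤ x i} = 1 / n := by
  rw [← nu_Ici n hn]
  exact (measurePreserving_eval_infinitePi (fun _ : ℤ => nu) i).measureReal_preimage
    measurableSet_Ici.nullMeasurableSet

lemma mu_all_lt (s : Finset ℤ) (n : ℕ) (hn : 0 < n) :
    mu.real {x | ∀ i ∈ s, x i < n} = (1 - 1 / n) ^ s.card := by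
  have h := Measure.infinitePi_pi (fun _ : ℤ => nu) (s := s) (t := fun _ => Iio n)
    fun _ _ => measurableSet_Iio
  rw [← nu_Iio n hn, measureReal_def, measureReal_def, ← ENNReal.toReal_pow, ← Finset.prod_const,
    ← h]
  rfl

lemma real_pre (e : ℤ ≃ ℤ) {B : Set XX} (hB : MeasurableSet B) :
    mu.real (re e ⁻¹' B) = mu.real B :=
  (mp_re e).measureReal_preimage hB.nullMeasurableSet

lemma zero_one {B : Set XX} (hB : MeasurableSet B)
    (h : ∀ n : ℕ, re (Equiv.addRight (n : ℤ)) ⁻¹' B ⊆ B) : mu.real B = 0 ∨ mu.real B = 1 := by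
  have hd := Measure.MeasureDense.of_generateFrom_isSetAlgebra_finite (μ := mu)
    isSetAlgebra_measurableCylinders generateFrom_measurableCylinders.symm
  have key : ∀ ε : ℝ, 0 < ε → |mu.real B - mu.real B ^ 2| ≤ 4 * ε := by
    intro ε hε
    obtain ⟨C, hC, hBC⟩ := hd.approx B hB (measure_ne_top _ _) ε hε
    have hBC' : mu.real (B ∆ C) ≤ ε := ENNReal.toReal_le_of_le_ofReal hε.le hBC.le
    have hCm : MeasurableSet C := MeasurableSet.of_mem_measurableCylinders hC
    obtain ⟨s, S, hS, rfl⟩ := (mem_measurableCylinders C).1 hC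
    obtain ⟨R, hR⟩ : ∃ R : ℕ, ∀ i ∈ s, |i| ≤ R := by
      refine ⟨s.sup Int.natAbs, fun i hi => ?_⟩
      have := Finset.le_sup (f := Int.natAbs) hi
      rw [← Int.natCast_natAbs]; exact_mod_cast this
    let e : ℤ ≃ ℤ := Equiv.addRight ((2 * R + 1 : ℕ) : ℤ)
    have hdis : Disjoint s (s.map e.toEmbedding) := by
      rw [Finset.disjoint_left]
      intro i hi hi'
      obtain ⟨j, hj, rfl⟩ := Finset.mem_map.1 hi'
      have h1 := abs_le.1 (hR _ hi)
      have h2 := abs_le.1 (hR _ hj)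
      simp only [e, Equiv.toEmbedding_apply, Equiv.coe_addRight] at h1
      push_cast at h1
      omega
    have hind := indep_mu.indepFun_finset s (s.map e.toEmbedding) hdis fun i => by fun_prop
    let ρ : (↥(s.map e.toEmbedding) → ℕ) → (↥s → ℕ) := fun y i =>
      y ⟨e i, Finset.mem_map_of_mem e.toEmbedding i.2⟩
    have hρ : Measurable ρ := by unfold ρ; fun_prop
    have h1 := hind.measure_inter_preimage_eq_mul S (ρ ⁻¹' S) hS (hρ hS)
    have h2 : mu (cylinder s S ∩ re e ⁻¹' cylinder s S) =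
        mu (cylinder s S) * mu (re e ⁻¹' cylinder s S) := h1
    have h3 : mu.real (cylinder s S ∩ re e ⁻¹' cylinder s S) = mu.real (cylinder s S) ^ 2 := by
      rw [measureReal_def, h2, ENNReal.toReal_mul, ← measureReal_def, ← measureReal_def,
        real_pre e hCm, sq]
    set C : Set XX := cylinder (α := fun _ : ℤ => ℕ) s S
    have h4 : mu.real (B ∩ re e ⁻¹' B) = mu.real B := by
      rw [inter_eq_right.2 (h _), real_pre e hB]
    have hm := (mp_re e).measurable
    have h5 := abs_measureReal_sub_le_measureReal_symmDiff (μ := mu)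
      (hB.inter (hm hB)).nullMeasurableSet (hCm.inter (hm hCm)).nullMeasurableSet
    have h6 := abs_measureReal_sub_le_measureReal_symmDiff (μ := mu)
      hB.nullMeasurableSet hCm.nullMeasurableSet
    have h7 : mu.real ((B ∩ re e ⁻¹' B) ∆ (C ∩ re e ⁻¹' C)) ≤ 2 * ε := by
      calc _ ≤ mu.real (B ∆ C ∪ re e ⁻¹' (B ∆ C)) := by
            refine measureReal_mono fun x hx => ?_
            simp only [mem_symmDiff, mem_inter_iff, mem_preimage, mem_union] at hx ⊢
            tauto
        _ ≤ mu.real (B ∆ C) + mu.real (re e ⁻¹' (B ∆ C)) := measureReal_union_le _ _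
        _ ≤ 2 * ε := by rw [real_pre e (hB.symmDiff hCm)]; linarith
    rw [h3, h4] at h5
    have hp0 : 0 ≤ mu.real B := measureReal_nonneg
    have hp1 : mu.real B ≤ 1 := measureReal_le_one
    have hq0 : 0 ≤ mu.real C := measureReal_nonneg
    have hq1 : mu.real C ≤ 1 := measureReal_le_one
    have h8 := abs_le.1 (h5.trans h7)
    have h9 := abs_le.1 (h6.trans hBC')
    rw [abs_le]; constructor <;> nlinarith
  have h0 : mu.real B - mu.real B ^ 2 = 0 := by
    refine abs_eq_zero.1 (le_antisymm (le_of_forall_pos_le_add fun ε hε => ?_) (abs_nonneg _))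
    have := key (ε / 4) (by positivity); linarith
  have : mu.real B * (mu.real B - 1) = 0 := by linarith
  rcases mul_eq_zero.1 this with h | h
  · exact Or.inl h
  · exact Or.inr (by linarith)

/-- the points whose recent past avoids A -/
def Bad (A : Set XX) (m : ℕ) : Set XX :=
  {y | ∀ t : ℤ, -(m : ℤ) ≤ t → t ≤ 0 → re (Equiv.addRight t) y ∉ A}

lemma meas_Bad {A : Set XX} (hA : MeasurableSet A) (m : ℕ) : MeasurableSet (Bad A m) := by
  simp only [Bad, ofPred_forall]
  refine MeasurableSet.iInter fun t => MeasurableSet.iInter fun _ => MeasurableSet.iInter fun _ => ?_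
  exact ((mp_re _).measurable hA).compl

lemma bad_small {A : Set XX} (hA : MeasurableSet A) (h0 : mu A ≠ 0) {ε : ℝ} (hε : 0 < ε) :
    ∃ m, mu.real (Bad A m) ≤ ε := by
  have hanti : Antitone (Bad A) := fun m m' hm y hy t ht ht' => hy t (by omega) ht'
  have ht := tendsto_measure_iInter_atTop (μ := mu)
    (fun m => (meas_Bad hA m).nullMeasurableSet) hanti ⟨0, measure_ne_top _ _⟩
  have hB : MeasurableSet (⋂ m, Bad A m) := MeasurableSet.iInter (meas_Bad hA)
  have hz : mu.real (⋂ m, Bad A m) = 0 := by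
    refine (zero_one hB fun n y hy => ?_).resolve_right fun h1 => h0 ?_
    · simp only [mem_preimage, mem_iInter] at hy ⊢
      intro m t ht ht' hy'
      refine hy (m + n) (t - n) (by push_cast; omega) (by omega) ?_
      have : re (Equiv.addRight (t - n)) (re (Equiv.addRight (n : ℤ)) y) =
          re (Equiv.addRight t) y := by
        funext i; simp only [re, Equiv.coe_addRight]; congr 1; ring
      rw [this]; exact hy'
    · have h2 : mu.real (⋂ m, Bad A m)ᶜ = 0 := by rw [probReal_compl_eq_one_sub hB, h1, sub_self]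
      rw [measureReal_eq_zero_iff] at h2
      refine measure_mono_null (t := (⋂ m, Bad A m)ᶜ) (fun y hy hy' => ?_) h2
      refine mem_iInter.1 hy' 0 0 (by simp) le_rfl ?_
      have : re (Equiv.addRight 0) y = y := by funext i; simp [re]
      rw [this]; exact hy
  rw [measureReal_eq_zero_iff] at hz
  rw [hz] at ht
  obtain ⟨m, hm⟩ := (ht.eventually (Iic_mem_nhds (a := ENNReal.ofReal ε) (by simpa using hε))).exists
  exact ⟨m, ENNReal.toReal_le_of_le_ofReal hε.le hm⟩

def FF (n N : ℕ) : Set XX := {y | n ≤ y (-(N : ℤ) - 1) ∧ ∀ i : ℤ, -(N : ℤ) ≤ i → i < 0 → y i < n}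

lemma meas_FF (n N : ℕ) : MeasurableSet (FF n N) := by
  simp only [FF, ofPred_and, ofPred_forall]
  refine MeasurableSet.inter (measurableSet_le measurable_const (by fun_prop)) ?_
  refine MeasurableSet.iInter fun t => MeasurableSet.iInter fun _ => MeasurableSet.iInter fun _ => ?_
  exact measurableSet_lt (by fun_prop) measurable_const

lemma exists_N {B : Set XX} (hB : MeasurableSet B) (n m s : ℕ) (hs : 0 < s) :
    ∃ N, m ≤ N ∧ N < m + s ∧ s * mu.real (FF n N ∩ B) ≤ mu.real B := by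
  obtain ⟨N, hN, hmin⟩ := Finset.exists_min_image (Finset.Ico m (m + s))
    (fun N => mu.real (FF n N ∩ B)) ⟨m, by simp [hs]⟩
  refine ⟨N, (Finset.mem_Ico.1 hN).1, (Finset.mem_Ico.1 hN).2, ?_⟩
  have h1 := Finset.card_nsmul_le_sum _ _ _ hmin
  simp only [Nat.card_Ico, add_tsub_cancel_left, nsmul_eq_mul] at h1
  refine h1.trans ?_
  rw [← measureReal_biUnion_finset (μ := mu) (f := fun N => FF n N ∩ B)]
  · exact measureReal_mono (iUnion₂_subset fun _ _ => inter_subset_right)
  · intro a _ b _ hab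
    rw [Function.onFun, Set.disjoint_left]
    rintro y ⟨⟨h1, h2⟩, -⟩ ⟨⟨h3, h4⟩, -⟩
    rcases lt_or_gt_of_ne hab with h | h
    · have := h4 (-(a : ℤ) - 1) (by omega) (by omega); omega
    · have := h2 (-(b : ℤ) - 1) (by omega) (by omega); omega
  · exact fun b _ => (meas_FF n b).inter hB

def Good (B : Set XX) (n N L : ℕ) : Set XX :=
  {x | ∃ M : ℕ, M < L ∧ n ≤ x M ∧ (∀ i : ℤ, -(N : ℤ) - 1 ≤ i → i < M → x i < n) ∧
    re (Equiv.swap (-(N : ℤ) - 1) M) x ∉ B}

lemma good_large {B : Set XX} (hB : MeasurableSet B) (r m s : ℕ) (hr : 0 < r) (hs : m < s)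
    (hBr : mu.real B ≤ 1 / r ^ 3) :
    ∃ N, m ≤ N ∧ N < m + s ∧ mu.real (Good B (r * s) N (r * (r * s)))ᶜ ≤ 4 / r := by
  have hs0 : 0 < s := by omega
  obtain ⟨N, hN1, hN2, hN⟩ := exists_N hB (r * s) m s hs0
  refine ⟨N, hN1, hN2, ?_⟩
  have hr' : (0 : ℝ) < r := by exact_mod_cast hr
  have hs' : (0 : ℝ) < s := by exact_mod_cast hs0
  have hn : 0 < r * s := Nat.mul_pos hr hs0
  set n := r * s with hnd
  have hn' : (n : ℝ) = r * s := by rw [hnd]; push_cast; rfl
  have hn1 : (1 : ℝ) ≤ n := by exact_mod_cast hn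
  let Z1 : Set XX := {x | ∀ i ∈ Finset.Ico (0 : ℤ) (r * n : ℕ), x i < n}
  let Z2 : Set XX := ⋃ i ∈ Finset.Ico (-(N : ℤ) - 1) 0, {x | n ≤ x i}
  let Z3 : Set XX := ⋃ M ∈ Finset.range (r * n),
    re (Equiv.swap (-(N : ℤ) - 1) (M : ℤ)) ⁻¹' (FF n N ∩ B)
  have hsub : (Good B n N (r * n))ᶜ ⊆ Z1 ∪ Z2 ∪ Z3 := by
    intro x hx
    by_contra hc
    simp only [mem_union, not_or, Z1, Z2, Z3, mem_iUnion, mem_ofPred_eq, not_exists, not_forall,
      Finset.mem_Ico, Finset.mem_range, not_lt, not_le] at hc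
    obtain ⟨⟨⟨i, ⟨hi0, hiL⟩, hi⟩, h2⟩, h3⟩ := hc
    have hex : ∃ M : ℕ, n ≤ x M := ⟨i.toNat, by rwa [Int.toNat_of_nonneg hi0]⟩
    have hM := Nat.find_spec hex
    have hM' : Nat.find hex ≤ i.toNat := Nat.find_min' hex (by rwa [Int.toNat_of_nonneg hi0])
    have hlt : ∀ j : ℤ, -(N : ℤ) - 1 ≤ j → j < Nat.find hex → x j < n := by
      intro j hj hj'
      by_cases h0 : j < 0
      · exact h2 j ⟨hj, h0⟩
      · have := Nat.find_min hex (m := j.toNat) (by omega)
        rwa [Int.toNat_of_nonneg (by omega), not_le] at this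
    refine hx ⟨Nat.find hex, by omega, hM, hlt, fun hb => h3 (Nat.find hex) (by omega) ⟨⟨?_, ?_⟩, hb⟩⟩
    · simpa only [re, Equiv.swap_apply_left] using hM
    · intro j hj hj'
      simp only [re]
      rw [Equiv.swap_apply_of_ne_of_ne (by omega) (by omega)]
      exact hlt j (by omega) (by omega)
  have h1 : mu.real Z1 ≤ 1 / r := by
    rw [mu_all_lt _ n hn]
    simp only [Int.card_Ico, sub_zero, Int.toNat_natCast]
    have hq0 : (0 : ℝ) ≤ 1 - 1 / n := by rw [sub_nonneg, div_le_one (by positivity)]; exact hn1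
    have h2 : (1 - 1 / n : ℝ) ^ (r * n) ≤ Real.exp (-(1 / n)) ^ (r * n) :=
      pow_le_pow_left₀ hq0 (by linarith [Real.add_one_le_exp (-(1 / n : ℝ))]) _
    rw [← Real.exp_nat_mul] at h2
    refine h2.trans ?_
    have h3 : ((r * n : ℕ) : ℝ) * -(1 / n) = -r := by push_cast; field_simp
    rw [h3, Real.exp_neg, ← one_div]
    exact one_div_le_one_div_of_le hr' (by linarith [Real.add_one_le_exp (r : ℝ)])
  have h2 : mu.real Z2 ≤ 2 / r := by
    refine (measureReal_biUnion_finset_le _ _).trans ?_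
    simp only [mu_ge _ n hn, Finset.sum_const, Int.card_Ico, nsmul_eq_mul]
    have h3 : ((0 - (-(N : ℤ) - 1)).toNat : ℝ) ≤ 2 * s := by
      have : (0 - (-(N : ℤ) - 1)).toNat ≤ 2 * s := by omega
      exact_mod_cast this
    calc _ ≤ 2 * s * (1 / n : ℝ) := by gcongr
      _ = 2 / r := by rw [hn']; field_simp
  have h3 : mu.real Z3 ≤ 1 / r := by
    refine (measureReal_biUnion_finset_le _ _).trans ?_
    simp only [real_pre _ ((meas_FF n N).inter hB), Finset.sum_const, Finset.card_range,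
      nsmul_eq_mul]
    calc _ = (r : ℝ) ^ 2 * (s * mu.real (FF n N ∩ B)) := by push_cast; rw [hn']; ring
      _ ≤ r ^ 2 * (1 / r ^ 3) := by gcongr; exact hN.trans hBr
      _ = 1 / r := by field_simp
  calc _ ≤ mu.real (Z1 ∪ Z2 ∪ Z3) := measureReal_mono hsub
    _ ≤ mu.real (Z1 ∪ Z2) + mu.real Z3 := measureReal_union_le _ _
    _ ≤ mu.real Z1 + mu.real Z2 + mu.real Z3 := by gcongr; exact measureReal_union_le _ _
    _ ≤ 1 / r + 2 / r + 1 / r := by gcongr
    _ = 4 / r := by ring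

end Vale.Agent.P131
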