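import Vale.Agent.P131.Shift
import Vale.Agent.P131.Prob

namespace Vale.Agent.P131
open scoped unitInterval ENNReal Topology
open Filter MeasureTheory Set Polynomial

noncomputable abbrev HH := Lp L2 2 mu

lemma sm_op (e : ℤ ≃ ℤ) {c : XX → ℤ → I} (hc : Measurable c) (s : ℤ) {f : XX → L2}
    (hf : StronglyMeasurable f) : StronglyMeasurable fun x => W (c x) s (f (re e x)) :=
  (cont_W s).comp_stronglyMeasurable
    ((hf.comp_measurable (mp_re e).measurable).prodMk hc.stronglyMeasurable)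

lemma mem_op (e : ℤ ≃ ℤ) {c : XX → ℤ → I} (hc : Measurable c) (s : ℤ) (ξ : HH) :
    MemLp (fun x => W (c x) s (ξ (re e x))) 2 mu :=
  ((Lp.memLp ξ).comp_measurePreserving (mp_re e)).of_le
    (sm_op e hc s (Lp.stronglyMeasurable ξ)).aestronglyMeasurable
    (ae_of_all _ fun _ => norm_W_le _ _ _)

lemma ae_re (e : ℤ ≃ ℤ) {p : XX → Prop} (h : ∀ᵐ x ∂mu, p x) : ∀ᵐ x ∂mu, p (re e x) :=
  (mp_re e).quasiMeasurePreserving.ae h

noncomputable def opf (e : ℤ ≃ ℤ) {c : XX → ℤ → I} (hc : Measurable c) (s : ℤ) (ξ : HH) : HH :=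
  (mem_op e hc s ξ).toLp _

lemma opf_ae (e : ℤ ≃ ℤ) {c : XX → ℤ → I} (hc : Measurable c) (s : ℤ) (ξ : HH) :
    ∀ᵐ x ∂mu, opf e hc s ξ x = W (c x) s (ξ (re e x)) :=
  (mem_op e hc s ξ).coeFn_toLp

lemma opf_add (e : ℤ ≃ ℤ) {c : XX → ℤ → I} (hc : Measurable c) (s : ℤ) (ξ η : HH) :
    opf e hc s (ξ + η) = opf e hc s ξ + opf e hc s η := by
  refine Lp.ext ?_
  filter_upwards [opf_ae e hc s (ξ + η), opf_ae e hc s ξ, opf_ae e hc s η,
    ae_re e (Lp.coeFn_add ξ η), Lp.coeFn_add (opf e hc s ξ) (opf e hc s η)] with x h1 h2 h3 h4 h5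
  rw [h1, h5, Pi.add_apply, h2, h3, h4, Pi.add_apply, map_add]

lemma opf_smul (e : ℤ ≃ ℤ) {c : XX → ℤ → I} (hc : Measurable c) (s : ℤ) (z : ℂ) (ξ : HH) :
    opf e hc s (z • ξ) = z • opf e hc s ξ := by
  refine Lp.ext ?_
  filter_upwards [opf_ae e hc s (z • ξ), opf_ae e hc s ξ,
    ae_re e (Lp.coeFn_smul z ξ), Lp.coeFn_smul z (opf e hc s ξ)] with x h1 h2 h4 h5
  rw [h1, h5, Pi.smul_apply, h2, h4, Pi.smul_apply, map_smul]

lemma opf_norm (e : ℤ ≃ ℤ) {c : XX → ℤ → I} (hc : Measurable c) (s : ℤ) (ξ : HH) :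
    ‖opf e hc s ξ‖ ≤ 1 * ‖ξ‖ := by
  rw [one_mul, ← Lp.norm_compMeasurePreserving ξ (mp_re e)]
  refine Lp.norm_le_norm_of_ae_le ?_
  filter_upwards [opf_ae e hc s ξ, Lp.coeFn_compMeasurePreserving ξ (mp_re e)] with x h1 h2
  rw [h1, h2]
  exact norm_W_le _ _ _

noncomputable def opl (e : ℤ ≃ ℤ) {c : XX → ℤ → I} (hc : Measurable c) (s : ℤ) : HH →ₗ[ℂ] HH where
  toFun := opf e hc s
  map_add' := opf_add e hc s
  map_smul' := opf_smul e hc s

noncomputable def op (e : ℤ ≃ ℤ) {c : XX → ℤ → I} (hc : Measurable c) (s : ℤ) : HH →L[ℂ] HH :=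
  (opl e hc s).mkContinuous 1 (opf_norm e hc s)

lemma op_ae (e : ℤ ≃ ℤ) {c : XX → ℤ → I} (hc : Measurable c) (s : ℤ) (ξ : HH) :
    ∀ᵐ x ∂mu, op e hc s ξ x = W (c x) s (ξ (re e x)) :=
  opf_ae e hc s ξ

def cT (a : ℕ → I) (x : XX) (n : ℤ) : I := a (x (n - 1))

lemma meas_cT (a : ℕ → I) : Measurable (cT a) :=
  measurable_pi_lambda _ fun n => (measurable_from_top (f := a)).comp (measurable_pi_apply (n - 1))

noncomputable def TT (a : ℕ → I) : HH →L[ℂ] HH := op (Equiv.refl ℤ) (meas_cT a) 1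

lemma TT_ae (a : ℕ → I) (ξ : HH) : ∀ᵐ x ∂mu, TT a ξ x = W (cT a x) 1 (ξ x) :=
  op_ae (Equiv.refl ℤ) (meas_cT a) 1 ξ

def Comm (a : ℕ → I) (e : ℤ ≃ ℤ) (c : XX → ℤ → I) (s : ℤ) : Prop :=
  ∀ x n, (c x n : ℝ) * a (x (e (n - s - 1))) = a (x (n - 1)) * c x (n - 1)

lemma op_comm {a : ℕ → I} {e : ℤ ≃ ℤ} {c : XX → ℤ → I} (hc : Measurable c) {s : ℤ}
    (h : Comm a e c s) : op e hc s * TT a = TT a * op e hc s := by
  refine ContinuousLinearMap.ext fun ξ => Lp.ext ?_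
  filter_upwards [op_ae e hc s (TT a ξ), ae_re e (TT_ae a ξ), TT_ae a (op e hc s ξ),
    op_ae e hc s ξ] with x h1 h2 h3 h4
  rw [mul_apply_eq_comp, mul_apply_eq_comp, h1, h2, h3, h4]
  ext n
  simp only [W_apply, cT, re]
  rw [← mul_assoc, ← mul_assoc, ← Complex.ofReal_mul, ← Complex.ofReal_mul, h x n,
    sub_right_comm]

def Hyp (a : ℕ → I) (P : Submodule ℂ HH) : Prop :=
  ∀ A : HH →L[ℂ] HH, A * TT a = TT a * A → ∀ ξ ∈ P, A ξ ∈ P

def Rep (P : Submodule ℂ HH) (f : XX → L2) : Prop := ∃ ξ ∈ P, ∀ᵐ x ∂mu, ξ x = f x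

variable {a : ℕ → I} {P : Submodule ℂ HH}

lemma rep_self {ξ : HH} (h : ξ ∈ P) : Rep P ξ := ⟨ξ, h, ae_of_all _ fun _ => rfl⟩

lemma rep_op (hP : Hyp a P) {e : ℤ ≃ ℤ} {c : XX → ℤ → I} (hc : Measurable c) {s : ℤ}
    (h : Comm a e c s) {f : XX → L2} (hf : Rep P f) :
    Rep P fun x => W (c x) s (f (re e x)) := by
  obtain ⟨ξ, hξ, hf⟩ := hf
  refine ⟨op e hc s ξ, hP _ (op_comm hc h) ξ hξ, ?_⟩
  filter_upwards [op_ae e hc s ξ, ae_re e hf] with x h1 h2
  rw [h1, h2]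

lemma comm_shift (a : ℕ → I) (h : XX → I) (s : ℤ) :
    Comm a (Equiv.addRight s) (fun x _ => h x) s := by
  intro x n
  rw [mul_comm, Equiv.coe_addRight]
  congr 4; ring

lemma rep_shift (hP : Hyp a P) {h : XX → I} (hh : Measurable h) (s : ℤ) {f : XX → L2}
    (hf : Rep P f) : Rep P fun x => W (fun _ => h x) s (f (re (Equiv.addRight s) x)) :=
  rep_op hP (measurable_pi_lambda _ fun _ => hh) (comm_shift a h s) hf

lemma re_zero (x : XX) : re (Equiv.addRight 0) x = x := by funext i; simp [re]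

lemma W_const (h : I) (v : L2) : W (fun _ => h) 0 v = ((h : ℝ) : ℂ) • v := by
  ext n; rw [W_apply, sub_zero, lp.coeFn_smul, Pi.smul_apply, smul_eq_mul]

lemma rep_mul (hP : Hyp a P) {h : XX → I} (hh : Measurable h) {f : XX → L2}
    (hf : Rep P f) : Rep P fun x => ((h x : ℝ) : ℂ) • f x := by
  simpa only [re_zero, W_const] using rep_shift hP hh 0 hf

lemma rep_add {f g : XX → L2} (hf : Rep P f) (hg : Rep P g) : Rep P fun x => f x + g x := by
  obtain ⟨ξ, hξ, hf⟩ := hf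
  obtain ⟨η, hη, hg⟩ := hg
  refine ⟨ξ + η, P.add_mem hξ hη, ?_⟩
  filter_upwards [Lp.coeFn_add ξ η, hf, hg] with x h1 h2 h3
  rw [h1, Pi.add_apply, h2, h3]

lemma rep_poly (hP : Hyp a P) {f : XX → L2} (hf : Rep P f) (g : ℂ[X]) :
    Rep P fun x => aeval (W (cT a x) 1) g (f x) := by
  induction g using poly_ind with
  | hC z =>
    obtain ⟨ξ, hξ, hf⟩ := hf
    refine ⟨z • ξ, P.smul_mem z hξ, ?_⟩
    filter_upwards [Lp.coeFn_smul z ξ, hf] with x h1 h2
    rw [h1, Pi.smul_apply, h2, aeval_C_apply]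
  | hadd p q hp hq => simpa only [aeval_add_apply] using rep_add hp hq
  | hX p hp =>
    obtain ⟨ξ, hξ, hp⟩ := hp
    refine ⟨TT a ξ, hP _ rfl ξ hξ, ?_⟩
    filter_upwards [TT_ae a ξ, hp] with x h1 h2
    rw [h1, h2, aeval_X_mul_apply]

lemma rep_ind (hP : Hyp a P) {E : Set XX} (hE : MeasurableSet E) {f : XX → L2} (hf : Rep P f) :
    Rep P (E.indicator f) := by
  classical
  have := rep_mul hP (h := fun x => if x ∈ E then 1 else 0)
    (Measurable.ite hE measurable_const measurable_const) hf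
  obtain ⟨ξ, hξ, h⟩ := this
  refine ⟨ξ, hξ, h.mono fun x hx => ?_⟩
  rw [hx]
  by_cases h : x ∈ E <;> simp [h]

lemma meas_near (ξ : HH) (κ : ℝ) : MeasurableSet {x | ‖ξ x - ek 0‖ ≤ κ} :=
  measurableSet_le ((Lp.stronglyMeasurable ξ).sub stronglyMeasurable_const).norm.measurable
    measurable_const

lemma glue (hP : Hyp a P) {ι : Type*} (κ : ℝ) (f : ι → XX → L2) (hf : ∀ i, Rep P (f i))
    (s : Finset ι) : ∃ ξ ∈ P, ∀ᵐ x ∂mu, (∃ i ∈ s, ‖f i x - ek 0‖ ≤ κ) → ‖ξ x - ek 0‖ ≤ κ := by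
  classical
  induction s using Finset.induction_on with
  | empty => exact ⟨0, P.zero_mem, ae_of_all _ fun x h => by simp at h⟩
  | insert i s _ ih =>
    obtain ⟨ξ, hξ, h⟩ := ih
    obtain ⟨η, hη, h'⟩ := rep_add (rep_ind hP (meas_near ξ κ) (rep_self hξ))
      (rep_ind hP (meas_near ξ κ).compl (hf i))
    refine ⟨η, hη, ?_⟩
    filter_upwards [h, h'] with x h1 h2
    rintro ⟨j, hj, hj'⟩
    rw [h2]
    by_cases hx : x ∈ {x | ‖ξ x - ek 0‖ ≤ κ}
    · rw [indicator_of_mem hx, indicator_of_notMem (by simpa using hx), add_zero]; exact hx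
    · rw [indicator_of_notMem hx, indicator_of_mem hx, zero_add]
      rcases Finset.mem_insert.1 hj with rfl | hj
      · exact hj'
      · exact absurd (h1 ⟨j, hj, hj'⟩) hx

noncomputable def rat (p q : I) : I := projIcc 0 1 zero_le_one ((p : ℝ) / q)

lemma rat_val (p q : I) : (rat p q : ℝ) = min 1 ((p : ℝ) / q) := by
  rw [rat, coe_projIcc, max_eq_right (le_min zero_le_one (div_nonneg p.2.1 q.2.1))]

lemma rat_mul (p q : I) (hq : 0 < (q : ℝ)) : (rat p q : ℝ) * q = min (q : ℝ) p := by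
  rw [rat_val, min_mul_of_nonneg _ _ hq.le, one_mul, div_mul_cancel₀ _ hq.ne']

noncomputable def cD (a : ℕ → I) (l M : ℤ) (x : XX) (n : ℤ) : I :=
  if l < n ∧ n ≤ M then rat (a (x l)) (a (x M)) else rat (a (x M)) (a (x l))

lemma meas_cD (a : ℕ → I) (l M : ℤ) : Measurable (cD a l M) := by
  refine measurable_pi_lambda _ fun n => ?_
  have h : ∀ i j : ℤ, Measurable fun x : XX => rat (a (x i)) (a (x j)) := fun i j =>
    (measurable_of_countable (fun p : ℕ × ℕ => rat (a p.1) (a p.2))).comp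
      (f := fun x : XX => (x i, x j)) ((measurable_pi_apply i).prodMk (measurable_pi_apply j))
  unfold cD
  split_ifs
  · exact h _ _
  · exact h _ _

lemma comm_swap (ha : ∀ n, 0 < (a n : ℝ)) {l M : ℤ} (h : l < M) :
    Comm a (Equiv.swap l M) (cD a l M) 0 := by
  intro x n
  rw [sub_zero]
  unfold cD
  by_cases h1 : n - 1 = l
  · rw [h1, Equiv.swap_apply_left, if_pos (by omega), if_neg (by omega), rat_mul _ _ (ha _),
      mul_comm, rat_mul _ _ (ha _), min_comm]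
  · by_cases h2 : n - 1 = M
    · rw [h2, Equiv.swap_apply_right, if_neg (by omega), if_pos (by omega), rat_mul _ _ (ha _),
        mul_comm, rat_mul _ _ (ha _), min_comm]
    · rw [Equiv.swap_apply_of_ne_of_ne h1 h2, mul_comm]
      by_cases h3 : l < n ∧ n ≤ M
      · rw [if_pos h3, if_pos (by omega)]
      · rw [if_neg h3, if_neg (by omega)]

lemma meas_coord (ξ : HH) (k : ℤ) : StronglyMeasurable fun x => ξ x k :=
  (lp.lipschitzWith_one_eval (E := fun _ : ℤ => ℂ) 2 k).continuous.comp_stronglyMeasurable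
    (Lp.stronglyMeasurable ξ)

lemma start (hP : Hyp a P) (h0 : P ≠ ⊥) : ∃ ξ ∈ P, (∀ᵐ x ∂mu, ‖ξ x‖ ≤ 1) ∧
    ∃ k : ℕ, mu {x | 1 / ((k : ℝ) + 1) ≤ ‖ξ x 0‖} ≠ 0 := by
  obtain ⟨ξ, hξ, hne⟩ := (Submodule.ne_bot_iff P).1 h0
  obtain ⟨n, hn⟩ : ∃ n : ℤ, ¬∀ᵐ x ∂mu, ξ x n = 0 := by
    by_contra h
    simp only [not_exists, not_not] at h
    refine hne (Lp.ext ?_)
    filter_upwards [ae_all_iff.2 h, Lp.coeFn_zero L2 2 mu] with x h1 h2
    rw [h2]; ext n; exact h1 n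
  let h : XX → I := fun x => ⟨(1 + ‖ξ x‖)⁻¹, by positivity,
    inv_le_one_of_one_le₀ (by linarith [norm_nonneg (ξ x)])⟩
  have hh : Measurable h := Measurable.subtype_mk
    (((Lp.stronglyMeasurable ξ).norm.measurable.const_add 1).inv)
  obtain ⟨η, hη, h1⟩ := rep_shift hP (h := fun _ => 1) measurable_const (-n)
    (rep_mul hP hh (rep_self hξ))
  refine ⟨η, hη, h1.mono fun x hx => ?_, ?_⟩
  · rw [hx]
    refine (norm_W_le _ _ _).trans ?_
    rw [norm_smul, Complex.norm_real, Real.norm_eq_abs, abs_of_nonneg (h _).2.1]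
    simp only [h]
    rw [inv_mul_le_iff₀ (by positivity)]; linarith
  · by_contra hc
    simp only [not_exists, not_not] at hc
    apply hn
    have h2 : ∀ᵐ x ∂mu, ∀ k : ℕ, ¬(1 / ((k : ℝ) + 1) ≤ ‖η x 0‖) :=
      ae_all_iff.2 fun k => measure_eq_zero_iff_ae_notMem.1 (hc k)
    have h3 : ∀ᵐ x ∂mu, ξ (re (Equiv.addRight (-n)) x) n = 0 := by
      filter_upwards [h1, h2] with x hx hx'
      have h4 : η x 0 = 0 := by
        by_contra h5
        obtain ⟨k, hk⟩ := exists_nat_one_div_lt (norm_pos_iff.2 h5)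
        exact hx' k hk.le
      rw [hx, W_apply] at h4
      simp only [Icc.coe_one, Complex.ofReal_one, one_mul, sub_neg_eq_add, zero_add,
        lp.coeFn_smul, Pi.smul_apply, smul_eq_mul, mul_eq_zero, Complex.ofReal_eq_zero] at h4
      refine h4.resolve_left ?_
      simp only [h]; positivity
    filter_upwards [ae_re (Equiv.addRight n) h3] with x hx
    have : re (Equiv.addRight (-n)) (re (Equiv.addRight n) x) = x := by
      funext i; simp [re]
    rwa [this] at hx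

end Vale.Agent.P131
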