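import Mathlib

namespace Vale.Agent.P131
open scoped unitInterval ENNReal Topology
open Polynomial Filter

noncomputable abbrev L2 := lp (fun _ : ℤ => ℂ) 2

lemma mem_shift (v : L2) (s : ℤ) : Memℓp (fun n : ℤ => v (n - s)) 2 := by
  have h := (lp.memℓp v).summable (by norm_num)
  apply memℓp_gen
  exact (Equiv.subRight s).summable_iff.2 h

noncomputable def sh (s : ℤ) (v : L2) : L2 := ⟨fun n => v (n - s), mem_shift v s⟩

lemma sh_apply (s : ℤ) (v : L2) (n : ℤ) : sh s v n = v (n - s) := rfl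

lemma norm_sh (s : ℤ) (v : L2) : ‖sh s v‖ = ‖v‖ := by
  rw [lp.norm_eq_tsum_rpow (by norm_num), lp.norm_eq_tsum_rpow (by norm_num)]
  congr 1
  exact (Equiv.subRight s).tsum_eq (fun n => ‖v n‖ ^ (2 : ℝ≥0∞).toReal)

lemma norm_I_mul (a : I) (z : ℂ) : ‖((a : ℝ) : ℂ) * z‖ ≤ ‖z‖ := by
  rw [norm_mul, Complex.norm_real, Real.norm_eq_abs, abs_of_nonneg a.2.1]
  exact mul_le_of_le_one_left (norm_nonneg _) a.2.2

noncomputable def Wf (c : ℤ → I) (s : ℤ) (v : L2) : L2 :=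
  ⟨fun n => ((c n : ℝ) : ℂ) * v (n - s), (mem_shift v s).mono' fun _ => norm_I_mul _ _⟩

lemma Wf_apply (c : ℤ → I) (s : ℤ) (v : L2) (n : ℤ) :
    Wf c s v n = ((c n : ℝ) : ℂ) * v (n - s) := rfl

noncomputable def W (c : ℤ → I) (s : ℤ) : L2 →L[ℂ] L2 :=
  LinearMap.mkContinuous
    { toFun := Wf c s
      map_add' := fun u v => by
        ext n; simp only [Wf_apply, lp.coeFn_add, Pi.add_apply]; ring
      map_smul' := fun a v => by
        ext n; simp only [Wf_apply, lp.coeFn_smul, Pi.smul_apply, smul_eq_mul, RingHom.id_apply]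
        ring } 1
    (fun v => by
      rw [one_mul, ← norm_sh s v]
      exact lp.norm_mono (by norm_num) fun n => norm_I_mul _ _)

lemma W_apply (c : ℤ → I) (s : ℤ) (v : L2) (n : ℤ) :
    W c s v n = ((c n : ℝ) : ℂ) * v (n - s) := rfl

lemma norm_W_le (c : ℤ → I) (s : ℤ) (v : L2) : ‖W c s v‖ ≤ ‖v‖ := by
  rw [← norm_sh s v]
  exact lp.norm_mono (by norm_num) fun n => norm_I_mul _ _

lemma cont_W_left (s : ℤ) (v : L2) : Continuous fun c : ℤ → I => W c s v := by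
  rw [continuous_iff_continuousAt]
  intro c'
  rw [ContinuousAt, tendsto_iff_norm_sub_tendsto_zero]
  have hF : Continuous fun c : ℤ → I =>
      ∑' n, ‖(((c n : ℝ) : ℂ) - ((c' n : ℝ) : ℂ)) * v (n - s)‖ ^ (2 : ℝ) := by
    refine continuous_tsum (u := fun n => ‖v (n - s)‖ ^ (2 : ℝ)) (fun n => ?_) ?_ ?_
    · refine Continuous.rpow_const (by fun_prop) fun _ => Or.inr (by norm_num)
    · simpa using (mem_shift v s).summable (by norm_num)
    · intro n c
      rw [Real.norm_eq_abs, abs_of_nonneg (by positivity)]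
      refine Real.rpow_le_rpow (norm_nonneg _) ?_ (by norm_num)
      rw [norm_mul, ← Complex.ofReal_sub, Complex.norm_real, Real.norm_eq_abs]
      refine mul_le_of_le_one_left (norm_nonneg _) ?_
      have h1 := (c n).2; have h2 := (c' n).2
      rw [abs_le]; constructor <;> linarith [h1.1, h1.2, h2.1, h2.2]
  have hG := (hF.rpow_const (p := 1 / 2) fun _ => Or.inr (by norm_num)).tendsto c'
  simp only [sub_self, zero_mul, norm_zero] at hG
  rw [Real.zero_rpow (by norm_num), tsum_zero, Real.zero_rpow (by norm_num)] at hG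
  refine hG.congr fun c => ?_
  rw [lp.norm_eq_tsum_rpow (by norm_num)]
  simp only [ENNReal.toReal_ofNat, lp.coeFn_sub, Pi.sub_apply, W_apply, sub_mul]

lemma cont_W (s : ℤ) : Continuous fun p : L2 × (ℤ → I) => W p.2 s p.1 := by
  refine continuous_prod_of_continuous_lipschitzWith _ 1 (fun v => cont_W_left s v) fun c => ?_
  refine LipschitzWith.of_dist_le_mul fun u v => ?_
  simp only [dist_eq_norm, ← map_sub, NNReal.coe_one, one_mul]
  exact norm_W_le _ _ _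

lemma poly_ind {P : ℂ[X] → Prop} (hC : ∀ a, P (C a)) (hadd : ∀ p q, P p → P q → P (p + q))
    (hX : ∀ p, P p → P (X * p)) (p : ℂ[X]) : P p := by
  refine Polynomial.induction_on p hC (fun p q => hadd p q) fun n a h => ?_
  have : C a * X ^ (n + 1) = X * (C a * X ^ n) := by ring
  rw [this]; exact hX _ h

lemma aeval_C_apply (S : L2 →L[ℂ] L2) (a : ℂ) (v : L2) : aeval S (C a) v = a • v := by
  simp [Algebra.algebraMap_eq_smul_one]

lemma aeval_add_apply (S : L2 →L[ℂ] L2) (p q : ℂ[X]) (v : L2) :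
    aeval S (p + q) v = aeval S p v + aeval S q v := by simp

lemma aeval_X_mul_apply (S : L2 →L[ℂ] L2) (p : ℂ[X]) (v : L2) :
    aeval S (X * p) v = S (aeval S p v) := by simp

lemma cont_aeval (g : ℂ[X]) : Continuous fun p : L2 × (ℤ → I) => aeval (W p.2 1) g p.1 := by
  induction g using poly_ind with
  | hC a => simp only [aeval_C_apply]; fun_prop
  | hadd p q hp hq => simp only [aeval_add_apply]; exact hp.add hq
  | hX p hp =>
    simp only [aeval_X_mul_apply]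
    exact (cont_W 1).comp (hp.prodMk continuous_snd)

lemma bound_aeval (g : ℂ[X]) : ∃ K : ℝ, 0 ≤ K ∧ ∀ c v, ‖aeval (W c 1) g v‖ ≤ K * ‖v‖ := by
  induction g using poly_ind with
  | hC a => exact ⟨‖a‖, norm_nonneg _, fun c v => by rw [aeval_C_apply, norm_smul]⟩
  | hadd p q hp hq =>
    obtain ⟨K, hK, h⟩ := hp
    obtain ⟨K', hK', h'⟩ := hq
    refine ⟨K + K', by positivity, fun c v => ?_⟩
    rw [aeval_add_apply, add_mul]
    exact (norm_add_le _ _).trans (add_le_add (h c v) (h' c v))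
  | hX p hp =>
    obtain ⟨K, hK, h⟩ := hp
    exact ⟨K, hK, fun c v => by rw [aeval_X_mul_apply]; exact (norm_W_le _ _ _).trans (h c v)⟩

noncomputable def ek (k : ℤ) : L2 := lp.single 2 k 1

lemma ek_apply (k i : ℤ) : ek k i = if i = k then 1 else 0 := by
  unfold ek
  rw [lp.single_apply, Pi.single_apply]

lemma norm_ek (k : ℤ) : ‖ek k‖ = 1 := by
  unfold ek
  rw [lp.norm_single (by norm_num)]; simp

lemma exact_solve (N M : ℕ) (c : ℤ → I) (hc : ∀ i : ℤ, -(N : ℤ) < i → i ≤ M → (c i : ℝ) ≠ 0)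
    (hM : (c (M + 1) : ℝ) = 0) (u : L2) (hu : ∀ i, u i ≠ 0 → -(N : ℤ) ≤ i ∧ i ≤ M)
    (t : ℤ) (ht : t ≤ 0) (hut : u t ≠ 0) : ∃ g : ℂ[X], aeval (W c 1) g u = ek 0 := by
  let Z : Submodule ℂ L2 :=
    { carrier := {v | ∃ g : ℂ[X], aeval (W c 1) g u = v}
      add_mem' := by
        rintro _ _ ⟨p, rfl⟩ ⟨q, rfl⟩
        exact ⟨p + q, aeval_add_apply _ _ _ _⟩
      zero_mem' := ⟨0, by simp⟩
      smul_mem' := by
        rintro a _ ⟨p, rfl⟩
        exact ⟨a • p, by simp⟩ }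
  have hZu : u ∈ Z := ⟨1, by simp⟩
  have hZS : ∀ z ∈ Z, W c 1 z ∈ Z := by
    rintro _ ⟨p, rfl⟩
    exact ⟨X * p, aeval_X_mul_apply _ _ _⟩
  obtain ⟨t0, ht0, hmin⟩ := Int.exists_least_of_bdd (P := fun i => u i ≠ 0)
    ⟨-(N : ℤ), fun i hi => (hu i hi).1⟩ ⟨t, hut⟩
  have hN := (hu t0 ht0).1
  have hQ : ∀ n, t0 ≤ n → n ≤ M → ∃ z ∈ Z, z n ≠ 0 ∧ ∀ i, z i ≠ 0 → n ≤ i ∧ i ≤ M := by
    intro n hn
    induction n, hn using Int.leInduction with
    | base => exact fun _ => ⟨u, hZu, ht0, fun i hi => ⟨hmin i hi, (hu i hi).2⟩⟩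
    | succ n hn ih =>
      intro hnM
      obtain ⟨z, hz, hzn, hzs⟩ := ih (by omega)
      refine ⟨W c 1 z, hZS z hz, ?_, fun i hi => ?_⟩
      · rw [W_apply, add_sub_cancel_right]
        exact mul_ne_zero (Complex.ofReal_ne_zero.2 (hc _ (by omega) hnM)) hzn
      · rw [W_apply] at hi
        have h1 := hzs _ (right_ne_zero_of_mul hi)
        have h2 : i ≠ M + 1 := by
          rintro rfl
          exact left_ne_zero_of_mul hi (Complex.ofReal_eq_zero.2 hM)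
        omega
  have hP : ∀ n, n ≤ (M : ℤ) + 1 → t0 ≤ n →
      ∀ v : L2, (∀ i, v i ≠ 0 → n ≤ i ∧ i ≤ M) → v ∈ Z := by
    intro n hn
    induction n, hn using Int.leInductionDown with
    | base =>
      intro _ v hv
      have : v = 0 := by
        ext i; by_contra h
        have := hv i h; omega
      rw [this]; exact Z.zero_mem
    | pred n hn ih =>
      intro hnt v hv
      obtain ⟨z, hz, hzn, hzs⟩ := hQ (n - 1) hnt (by omega)
      have h1 := ih (by omega) (v - (v (n - 1) / z (n - 1)) • z) (fun i hi => by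
        have h2 : i ≠ n - 1 := by
          rintro rfl
          apply hi
          simp only [lp.coeFn_sub, lp.coeFn_smul, Pi.sub_apply, Pi.smul_apply, smul_eq_mul]
          field_simp; ring
        by_cases h3 : v i = 0
        · have h4 : z i ≠ 0 := by
            intro h4; apply hi
            simp only [lp.coeFn_sub, lp.coeFn_smul, Pi.sub_apply, Pi.smul_apply, smul_eq_mul, h3, h4]
            ring
          have := hzs i h4; omega
        · have := hv i h3; omega)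
      have h2 := Z.add_mem h1 (Z.smul_mem (v (n - 1) / z (n - 1)) hz)
      rwa [sub_add_cancel] at h2
  have h0 : t0 ≤ 0 := (hmin t hut).trans ht
  exact hP 0 (by omega) h0 (ek 0) fun i hi => by
    rw [ek_apply] at hi
    split_ifs at hi with h
    · omega
    · exact absurd rfl hi

def Loc (N M : ℕ) (b κ δ : ℝ) : Prop :=
  ∃ G : Finset ℂ[X], ∀ (c : ℤ → I) (u v : L2), (∀ i : ℤ, -(N : ℤ) < i → i ≤ M → b ≤ c i) →
    (c (M + 1) : ℝ) ≤ δ → ‖v‖ ≤ 1 → (∀ i : ℤ, -(N : ℤ) ≤ i → i ≤ M → u i = v i) →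
    (∀ i : ℤ, ¬(-(N : ℤ) ≤ i ∧ i ≤ M) → ‖u i‖ ≤ δ * ‖v i‖) →
    (∃ t : ℤ, -(N : ℤ) ≤ t ∧ t ≤ 0 ∧ κ ≤ ‖v t‖) →
    ∃ g ∈ G, ‖aeval (W c 1) g u - ek 0‖ ≤ κ

noncomputable def Jm (N M : ℕ) (y : ℤ → Metric.closedBall (0 : ℂ) 1) : L2 :=
  ∑ n ∈ Finset.Icc (-(N : ℤ)) M, lp.single 2 n (y n : ℂ)

lemma Jm_apply (N M : ℕ) (y : ℤ → Metric.closedBall (0 : ℂ) 1) (i : ℤ) :
    Jm N M y i = if -(N : ℤ) ≤ i ∧ i ≤ M then (y i : ℂ) else 0 := by
  unfold Jm
  rw [lp.coeFn_sum, Finset.sum_apply]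
  simp only [lp.single_apply, Pi.single_apply]
  rw [Finset.sum_ite_eq]
  simp

lemma cont_Jm (N M : ℕ) : Continuous (Jm N M) := by
  unfold Jm
  refine continuous_finsetSum _ fun n _ => ?_
  exact (lp.isometry_single (E := fun _ : ℤ => ℂ) (p := 2) n).continuous.comp (by fun_prop)

abbrev Y := (ℤ → Metric.closedBall (0 : ℂ) 1) × (ℤ → I)

lemma loc_ex (N M : ℕ) {b κ : ℝ} (hb : 0 < b) (hκ : 0 < κ) :
    ∃ δ0 : ℝ, 0 < δ0 ∧ ∀ δ, 0 ≤ δ → δ ≤ δ0 → Loc N M b κ δ := by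
  let K : Set Y := {p | ∀ i : ℤ, -(N : ℤ) < i → i ≤ M → b ≤ p.2 i} ∩
    ⋃ t ∈ Finset.Icc (-(N : ℤ)) 0, {p | κ ≤ ‖(p.1 t : ℂ)‖}
  have hKc : IsClosed K := by
    refine IsClosed.inter ?_ ?_
    · simp only [Set.ofPred_forall]
      refine isClosed_iInter fun i => isClosed_iInter fun _ => isClosed_iInter fun _ => ?_
      exact isClosed_le continuous_const (by fun_prop)
    · refine isClosed_biUnion_finset fun t _ => ?_
      exact isClosed_le continuous_const (by fun_prop)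
  let U : ℂ[X] → Set Y := fun g => {p | ‖aeval (W p.2 1) g (Jm N M p.1) - ek 0‖ < κ / 2}
  have hU : ∀ g, IsOpen (U g) := by
    intro g
    refine isOpen_lt ?_ continuous_const
    refine Continuous.norm (Continuous.sub ?_ continuous_const)
    exact (cont_aeval g).comp (((cont_Jm N M).comp continuous_fst).prodMk continuous_snd)
  have hK0 : IsCompact (K ∩ {p | (p.2 (M + 1) : ℝ) = 0}) :=
    (hKc.inter (isClosed_eq (by fun_prop) continuous_const)).isCompact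
  obtain ⟨G, hG⟩ := hK0.elim_finite_subcover U hU (by
    rintro p ⟨⟨h1, h2⟩, h3⟩
    simp only [Set.mem_iUnion, Set.mem_ofPred_eq, Finset.mem_Icc] at h2
    obtain ⟨t, ⟨ht1, ht2⟩, ht3⟩ := h2
    obtain ⟨g, hg⟩ := exact_solve N M p.2 (fun i hi hi' => (hb.trans_le (h1 i hi hi')).ne') h3
      (Jm N M p.1) (fun i hi => by
        rw [Jm_apply] at hi
        by_contra h; rw [if_neg h] at hi; exact hi rfl) t ht2 (by
        rw [Jm_apply, if_pos ⟨ht1, by omega⟩]
        exact norm_pos_iff.1 (hκ.trans_le ht3))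
    refine Set.mem_iUnion.2 ⟨g, ?_⟩
    simp only [U, Set.mem_ofPred_eq, hg, sub_self, norm_zero]
    positivity)
  have hK1 : IsCompact (K \ ⋃ g ∈ G, U g) :=
    (hKc.sdiff (isOpen_biUnion fun g _ => hU g)).isCompact
  obtain ⟨a, ha, ha'⟩ := hK1.exists_forall_le' (f := fun p : Y => (p.2 (M + 1) : ℝ)) (a := 0)
    (Continuous.continuousOn (by fun_prop)) (fun p hp => by
      refine lt_of_le_of_ne (p.2 (M + 1)).2.1 fun h => hp.2 (hG ⟨hp.1, h.symm⟩))
  choose Kg hKg0 hKg using bound_aeval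
  have hS : 0 ≤ ∑ g ∈ G, Kg g := Finset.sum_nonneg fun g _ => hKg0 g
  refine ⟨min (a / 2) (κ / 2 / (∑ g ∈ G, Kg g + 1)), by positivity, fun δ hδ0 hδ => ⟨G, ?_⟩⟩
  intro c u v hc hcM hv huv huv' ⟨t, ht1, ht2, ht3⟩
  let y : ℤ → Metric.closedBall (0 : ℂ) 1 := fun i => ⟨v i, by
    rw [mem_closedBall_zero_iff]; exact (lp.norm_apply_le_norm (by norm_num) v i).trans hv⟩
  have hp : ((y, c) : Y) ∈ K := by
    refine ⟨hc, ?_⟩
    simp only [Set.mem_iUnion, Set.mem_ofPred_eq, Finset.mem_Icc]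
    exact ⟨t, ⟨ht1, ht2⟩, ht3⟩
  have hp' : ((y, c) : Y) ∈ ⋃ g ∈ G, U g := by
    by_contra h
    have h1 := ha' _ ⟨hp, h⟩
    have h2 := hδ.trans (min_le_left _ _)
    simp only at h1
    linarith
  simp only [Set.mem_iUnion] at hp'
  obtain ⟨g, hg, hgU⟩ := hp'
  refine ⟨g, hg, ?_⟩
  have h1 : ‖u - Jm N M y‖ ≤ δ := by
    calc ‖u - Jm N M y‖ ≤ ‖(δ : ℂ) • v‖ := by
          refine lp.norm_mono (by norm_num) fun i => ?_
          simp only [lp.coeFn_sub, lp.coeFn_smul, Pi.sub_apply, Pi.smul_apply, Jm_apply]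
          split_ifs with h
          · rw [huv i h.1 h.2]; simp only [y, sub_self, norm_zero]; exact norm_nonneg _
          · rw [sub_zero, norm_smul, Complex.norm_real, Real.norm_eq_abs, abs_of_nonneg hδ0]
            exact huv' i h
      _ ≤ δ := by
          rw [norm_smul, Complex.norm_real, Real.norm_eq_abs, abs_of_nonneg hδ0]
          exact mul_le_of_le_one_right hδ0 hv
  have h2 : Kg g * δ ≤ κ / 2 := by
    have h3 := hδ.trans (min_le_right _ _)
    have h4 : Kg g ≤ ∑ g ∈ G, Kg g := Finset.single_le_sum (fun g _ => hKg0 g) hg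
    rw [le_div_iff₀ (by positivity)] at h3
    nlinarith
  have h3 : aeval (W c 1) g u - ek 0 =
      aeval (W c 1) g (u - Jm N M y) + (aeval (W c 1) g (Jm N M y) - ek 0) := by
    rw [map_sub]; abel
  rw [h3]
  have h4 := hKg g c (u - Jm N M y)
  have h5 : ‖aeval (W c 1) g (Jm N M y) - ek 0‖ < κ / 2 := hgU
  have h6 := mul_le_mul_of_nonneg_left h1 (hKg0 g)
  linarith [norm_add_le (aeval (W c 1) g (u - Jm N M y)) (aeval (W c 1) g (Jm N M y) - ek 0)]

lemma loc_unif (L : ℕ) {b κ : ℝ} (hb : 0 < b) (hκ : 0 < κ) :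
    ∃ δ : ℝ, 0 < δ ∧ δ ≤ 1 ∧ ∀ N ≤ L, ∀ M ≤ L, Loc N M b κ δ := by
  choose d hd0 hd using fun p : ℕ × ℕ => loc_ex p.1 p.2 hb hκ
  have hne : (Finset.range (L + 1) ×ˢ Finset.range (L + 1)).Nonempty := ⟨(0, 0), by simp⟩
  obtain ⟨p, -, hp⟩ := Finset.exists_min_image _ d hne
  refine ⟨min 1 (d p), lt_min one_pos (hd0 p), min_le_left _ _, fun N hN M hM => ?_⟩
  refine hd (N, M) _ (lt_min one_pos (hd0 p)).le ((min_le_right _ _).trans (hp _ ?_))
  simp only [Finset.mem_product, Finset.mem_range]; omega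

/-- the weights -/
lemma exists_weights : ∃ a : ℕ → ℝ, (∀ n, 0 < a n) ∧ (∀ n, a n ≤ 1) ∧ Antitone a ∧
    ∀ n, ∃ δ : ℝ, 0 < δ ∧ a (n + 1) ≤ δ * a n ∧
      ∀ N ≤ (n + 1) ^ 2, ∀ M ≤ (n + 1) ^ 2, Loc N M (a n) (1 / (n + 1)) δ := by
  choose d hd0 hd1 hd using fun (n : ℕ) (b : {b : ℝ // 0 < b}) =>
    loc_unif ((n + 1) ^ 2) b.2 (κ := 1 / (n + 1)) (by positivity)
  let a : ℕ → {b : ℝ // 0 < b} := fun n =>
    Nat.rec ⟨1, one_pos⟩ (fun n b => ⟨d n b * b.1, mul_pos (hd0 n b) b.2⟩) n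
  have ha : ∀ n, (a (n + 1)).1 = d n (a n) * (a n).1 := fun n => rfl
  have hanti : Antitone fun n => (a n).1 := antitone_nat_of_succ_le fun n => by
    rw [ha]; exact mul_le_of_le_one_left (a n).2.le (hd1 _ _)
  refine ⟨fun n => (a n).1, fun n => (a n).2, fun n => hanti (Nat.zero_le n), hanti, fun n => ?_⟩
  exact ⟨d n (a n), hd0 _ _, (ha n).le, hd n (a n)⟩

end Vale.Agent.P131
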