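import Vale.Agent.P131.Main

namespace Vale.Agent.P131
open scoped ENNReal Topology
open Filter MeasureTheory Set TopologicalSpace

lemma basis_nat (H : Type*) [NormedAddCommGroup H] [InnerProductSpace ℂ H] [CompleteSpace H]
    [SeparableSpace H] (hH : ¬FiniteDimensional ℂ H) : Nonempty (HilbertBasis ℕ ℂ H) := by
  obtain ⟨w, b, hb⟩ := exists_hilbertBasis ℂ H
  have hcount : Countable w := by
    refine Pairwise.countable_of_isOpen_disjoint (s := fun i : w => Metric.ball (b i) (1 / 2))
      (fun i j hij => ?_) (fun _ => Metric.isOpen_ball) fun _ => Metric.nonempty_ball.2 (by norm_num)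
    refine Metric.ball_disjoint_ball ?_
    have h1 : ‖b i - b j‖ ^ 2 = 2 := by
      rw [@norm_sub_sq ℂ, b.orthonormal.1, b.orthonormal.1, b.orthonormal.2 hij]
      simp; norm_num
    rw [dist_eq_norm]
    nlinarith [norm_nonneg (b i - b j)]
  have hinf : Infinite w := by
    rw [← not_finite_iff_infinite]
    intro hfin
    apply hH
    have h1 : FiniteDimensional ℂ (Submodule.span ℂ (range b)) :=
      FiniteDimensional.span_of_finite ℂ (finite_range b)
    have h2 := b.dense_span
    rw [(Submodule.closed_of_finiteDimensional _).submodule_topologicalClosure_eq] at h2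
    rw [h2] at h1
    exact Module.Finite.equiv Submodule.topEquiv
  obtain ⟨e⟩ : Nonempty (ℕ ≃ w) := inferInstance
  refine ⟨HilbertBasis.mk (b.orthonormal.comp e e.injective) ?_⟩
  rw [e.surjective.range_comp, b.dense_span]

instance sepL2 : SeparableSpace L2 := by
  rw [← isSeparable_univ_iff]
  have h1 : IsSeparable (Submodule.span ℂ (range ek) : Set L2) :=
    (countable_range ek).isSeparable.span
  refine h1.closure.mono fun v _ => ?_
  refine mem_closure_of_tendsto (lp.hasSum_single (by norm_num) v) (Eventually.of_forall fun s => ?_)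
  refine sum_mem fun i _ => ?_
  have : lp.single 2 i (v i) = v i • ek i := by
    rw [ek, ← lp.single_smul, smul_eq_mul, mul_one]
  rw [this]
  exact Submodule.smul_mem _ _ (Submodule.subset_span ⟨i, rfl⟩)

lemma sepHH : SeparableSpace HH := by
  have : Fact ((2 : ℝ≥0∞) ≠ ∞) := ⟨by norm_num⟩
  infer_instance

lemma infHH : ¬FiniteDimensional ℂ HH := by
  intro h
  have ho : Orthonormal ℂ fun k : ℤ =>
      indicatorConstLp 2 MeasurableSet.univ (measure_ne_top mu _) (ek k) := by
    classical
    rw [orthonormal_iff_ite]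
    intro i j
    rw [L2.inner_indicatorConstLp_indicatorConstLp]
    simp [ek, lp.inner_single_left, lp.single_apply, Pi.single_apply]
  have := ho.linearIndependent.finite
  exact not_finite ℤ

theorem transfer (H : Type*) [NormedAddCommGroup H] [InnerProductSpace ℂ H] [CompleteSpace H]
    [SeparableSpace H] (hH : ¬FiniteDimensional ℂ H) :
    ∃ T : H →L[ℂ] H, (∀ z : ℂ, T ≠ z • 1) ∧
      ∀ M : Submodule ℂ H, IsClosed (M : Set H) →
        (∀ A : H →L[ℂ] H, A * T = T * A → ∀ x ∈ M, A x ∈ M) → M = ⊥ ∨ M = ⊤ := by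
  have := sepHH
  obtain ⟨b⟩ := basis_nat H hH
  obtain ⟨b'⟩ := basis_nat HH infHH
  let U : HH ≃L[ℂ] H := (b'.repr.trans b.repr.symm).toContinuousLinearEquiv
  obtain ⟨T, hT, hM⟩ := model
  refine ⟨(U : HH →L[ℂ] H) ∘L T ∘L (U.symm : H →L[ℂ] HH), fun z hz => hT z ?_, fun M hc hi => ?_⟩
  · ext1 x
    have := congrArg (fun S : H →L[ℂ] H => U.symm (S (U x))) hz
    simpa using this
  · have := hM (M.comap (U : HH →ₗ[ℂ] H)) (hc.preimage U.continuous) (fun A hA x hx => by
      have h1 := hi ((U : HH →L[ℂ] H) ∘L A ∘L (U.symm : H →L[ℂ] HH)) (by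
        ext1 y
        have := congrArg (fun S : HH →L[ℂ] HH => U (S (U.symm y))) hA
        simpa using this) (U x) hx
      simpa using h1)
    rcases this with h | h
    · left
      rw [Submodule.eq_bot_iff] at h ⊢
      intro x hx
      have := h (U.symm x) (by simpa using hx)
      simpa using this
    · right
      rw [Submodule.eq_top_iff'] at h ⊢
      intro x
      simpa using h (U.symm x)

end Vale.Agent.P131
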